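import Vale.Agent.Lib.P335.Gen.GMain2

/-!
# P335: the Kannan-Tetali-Vempala conjecture for simple graphs

For every `n ≥ 4` and every degree vector `d` on `n` vertices the switch chain `P_d` of the problem
satisfies `max_G ‖P_d^t(G, ·) - π_d‖_TV ≤ 1/4` at `t = 12 C(n,4) (n^2 + 2)`, hence
`t_mix(d) ≤ n^6`.
-/

namespace Vale.Agent.Results.P335.A_KTV

open _root_.P335

theorem result (n : ℕ) (hn : 4 ≤ n) (d : Fin n → ℕ) :
    (∀ G : Realization n d, tvDist n d (12 * n.choose 4 * (n * n + 2)) G ≤ 1 / 4) ∧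
      tmix n d ≤ n ^ 6 :=
  ⟨fun G => all_tv hn d G, all_tmix hn d⟩

end Vale.Agent.Results.P335.A_KTV
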