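import Vale.Agent.Lib.P335.Lit.Eq
import Vale.Agent.Lib.P335.Gen.GMain2

/-!
# P335: the Kannan-Tetali-Vempala conjecture, with the switch chain defined literally by the
three-stage random procedure of the problem

`Lit.kernel n d` is: with probability `1/2` stay put; otherwise choose a `4`-element set `S` of
vertices uniformly, then one of the six ordered pairs `(F, F')` of distinct perfect matchings of the
complete graph on `S` uniformly; if both edges of `F` are present and both edges of `F'` are absent,
replace `F` by `F'`, otherwise stay put.
-/

namespace Vale.Agent.Results.P335.B_KTVLiteral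

open _root_.P335 _root_.P335.Lit

open Classical in
/-- For every `n ≥ 4` and every degree vector `d`: the kernel of the three-stage procedure is a
stochastic matrix on `Ω_d`, every 4-set has exactly six ordered pairs of distinct perfect matchings,
and at the time `t₀ = 12 C(n,4) (n^2 + 2) ≤ n^6` the law of the chain is within total variation
distance `1/4` of uniform from every start; hence `t_mix(d) ≤ n^6`. -/
theorem result (n : ℕ) (hn : 4 ≤ n) (d : Fin n → ℕ) :
    (∀ S : Finset (Fin n), S.card = 4 → (PM S).offDiag.card = 6) ∧
    (∀ G G' : Realization n d, 0 ≤ kernel n d G G') ∧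
    (∀ G : Realization n d, ∑ G', kernel n d G G' = 1) ∧
    12 * n.choose 4 * (n * n + 2) ≤ n ^ 6 ∧
    (∀ G : Realization n d,
      (1 / 2) * ∑ G', |((kernel n d) ^ (12 * n.choose 4 * (n * n + 2))) G G'
        - 1 / (Fintype.card (Realization n d) : ℝ)| ≤ 1 / 4) := by
  refine ⟨fun S hS => card_offDiag_PM hS, kernel_nonneg d, kernel_row_sum hn d,
    poly_bound_all n, fun G => ?_⟩
  have h := all_tv hn d G
  unfold tvDist at h
  rw [kernel_eq hn d]
  exact h

end Vale.Agent.Results.P335.B_KTVLiteral
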