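import Vale.Agent.Lib.P335.Gen.GMain2

/-!
# P335: the Kannan-Tetali-Vempala conjecture, stated with Mathlib notions only

Any real matrix `P` indexed by the simple graphs on `Fin n` with degree vector `d` whose entry at
`(G, G')`, `G ≠ G'`, is `1 / (12 C(n,4))` if `G'` arises from `G` by a switch and `0` otherwise, and
whose rows sum to `1` (that is, the transition matrix of the switch chain), satisfies
`(1/2) ∑_{G'} |P^t(G, G') - 1/|Ω_d|| ≤ 1/4` at `t = 12 C(n,4) (n^2 + 2) ≤ n^6`, for every start `G`.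
-/

namespace Vale.Agent.Results.P335.C_KTVInline

open _root_.P335

theorem eq_switchChain {n : ℕ} (d : Fin n → ℕ)
    (P : Matrix (Realization n d) (Realization n d) ℝ)
    (hsw : ∀ G G' : Realization n d, G ≠ G' → IsSwitch G.1 G'.1 →
      P G G' = 1 / (12 * (n.choose 4 : ℝ)))
    (hno : ∀ G G' : Realization n d, G ≠ G' → ¬ IsSwitch G.1 G'.1 → P G G' = 0)
    (hrow : ∀ G : Realization n d, ∑ G', P G G' = 1) : P = switchChain n d := by
  classical
  have hoff : ∀ G G' : Realization n d, G ≠ G' → P G G' = switchChain n d G G' := by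
    intro G G' h
    unfold switchChain
    rw [if_neg h]
    by_cases hs : IsSwitch G.1 G'.1
    · rw [if_pos hs, hsw G G' h hs]
    · rw [if_neg hs, hno G G' h hs]
  funext G G'
  by_cases h : G = G'
  · subst h
    have h1 := hrow G
    have h2 := switchChain_row_sum d G
    rw [← Finset.add_sum_erase Finset.univ _ (Finset.mem_univ G)] at h1 h2
    have h3 : ∑ x ∈ Finset.univ.erase G, P G x = ∑ x ∈ Finset.univ.erase G, switchChain n d G x :=
      Finset.sum_congr rfl (fun x hx => hoff G x (Finset.ne_of_mem_erase hx).symm)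
    linarith
  · exact hoff G G' h

theorem key {n : ℕ} (hn : 4 ≤ n) (d : Fin n → ℕ) [iF : Fintype (Realization n d)]
    [iD : DecidableEq (Realization n d)]
    (P : Matrix (Realization n d) (Realization n d) ℝ)
    (hsw : ∀ G G' : Realization n d, G ≠ G' → IsSwitch G.1 G'.1 →
      P G G' = 1 / (12 * (n.choose 4 : ℝ)))
    (hno : ∀ G G' : Realization n d, G ≠ G' → ¬ IsSwitch G.1 G'.1 → P G G' = 0)
    (hrow : ∀ G : Realization n d, ∑ G', P G G' = 1) (G : Realization n d) :
    (1 / 2) * ∑ G', |(P ^ (12 * n.choose 4 * (n * n + 2))) G G'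
      - 1 / (Fintype.card (Realization n d) : ℝ)| ≤ 1 / 4 := by
  have e1 : iF = P335.instFintypeRealization n d := Subsingleton.elim _ _
  have e2 : iD = (fun a b => Classical.propDecidable (a = b)) := Subsingleton.elim _ _
  subst e1 e2
  have hP := eq_switchChain d P hsw hno hrow
  have h := all_tv hn d G
  unfold tvDist at h
  rw [hP]
  exact h

theorem steps_le {n : ℕ} (hn : 4 ≤ n) : 12 * n.choose 4 * (n * n + 2) ≤ n ^ 6 := by
  have h1 : n.choose 4 * 24 ≤ n ^ 4 := by
    have h2 := Nat.descFactorial_eq_factorial_mul_choose n 4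
    have h3 := Nat.descFactorial_le_pow n 4
    have h5 : Nat.factorial 4 = 24 := by decide
    rw [h5] at h2
    omega
  have h4 : n * n + 2 ≤ 2 * (n * n) := by nlinarith
  calc 12 * n.choose 4 * (n * n + 2) ≤ 12 * n.choose 4 * (2 * (n * n)) :=
        Nat.mul_le_mul_left _ h4
    _ = (n.choose 4 * 24) * (n * n) := by ring
    _ ≤ n ^ 4 * (n * n) := Nat.mul_le_mul_right _ h1
    _ = n ^ 6 := by ring

open Classical in
/-- The transition matrix of the switch chain is characterised by its off-diagonal entries and its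
row sums; after `12 C(n,4) (n^2+2) ≤ n^6` steps it is within total variation `1/4` of uniform. -/
theorem result (n : ℕ) (hn : 4 ≤ n) (d : Fin n → ℕ)
    (P : Matrix {G : SimpleGraph (Fin n) // ∀ v, G.degree v = d v}
      {G : SimpleGraph (Fin n) // ∀ v, G.degree v = d v} ℝ)
    (hsw : ∀ G G' : {G : SimpleGraph (Fin n) // ∀ v, G.degree v = d v}, G ≠ G' →
      (∃ a b c e : Fin n, a ≠ b ∧ a ≠ c ∧ a ≠ e ∧ b ≠ c ∧ b ≠ e ∧ c ≠ e ∧
        G.1.Adj a b ∧ G.1.Adj c e ∧ ¬ G.1.Adj a c ∧ ¬ G.1.Adj b e ∧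
        G'.1.edgeSet = (G.1.edgeSet \ {s(a, b), s(c, e)}) ∪ {s(a, c), s(b, e)}) →
      P G G' = (1 / 2) * (1 / (n.choose 4 : ℝ)) * (1 / 6))
    (hno : ∀ G G' : {G : SimpleGraph (Fin n) // ∀ v, G.degree v = d v}, G ≠ G' →
      ¬ (∃ a b c e : Fin n, a ≠ b ∧ a ≠ c ∧ a ≠ e ∧ b ≠ c ∧ b ≠ e ∧ c ≠ e ∧
        G.1.Adj a b ∧ G.1.Adj c e ∧ ¬ G.1.Adj a c ∧ ¬ G.1.Adj b e ∧
        G'.1.edgeSet = (G.1.edgeSet \ {s(a, b), s(c, e)}) ∪ {s(a, c), s(b, e)}) →
      P G G' = 0)
    (hrow : ∀ G, ∑ G', P G G' = 1) :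
    12 * n.choose 4 * (n * n + 2) ≤ n ^ 6 ∧
    ∀ G, (1 / 2) * ∑ G', |(P ^ (12 * n.choose 4 * (n * n + 2))) G G'
      - 1 / (Fintype.card {G : SimpleGraph (Fin n) // ∀ v, G.degree v = d v} : ℝ)| ≤ 1 / 4 := by
  refine ⟨steps_le hn, fun G => ?_⟩
  refine @key n hn d (inferInstance : Fintype {G : SimpleGraph (Fin n) // ∀ v, G.degree v = d v})
    (inferInstance : DecidableEq {G : SimpleGraph (Fin n) // ∀ v, G.degree v = d v})
    P (fun G G' h hs => ?_) (fun G G' h hs => hno G G' h hs) hrow G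
  rw [hsw G G' h hs]
  ring

end Vale.Agent.Results.P335.C_KTVInline
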