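import Vale.Agent.Lib.P335.Main

/-!
# P335: the switch chain mixes rapidly for every split degree vector

For every `n ≥ 4` and every degree vector `d` of a split graph on `n` vertices (no further
restriction: arbitrary bipartite margins between the clique side and the independent side), the
switch chain `P_d` of the problem satisfies `t_mix(d) ≤ 6 C(n,4) (n^2 + 2) ≤ n^6`.
-/

namespace Vale.Agent.Results.P335.SplitRapidMixing

open _root_.P335

theorem result (n : ℕ) (hn : 4 ≤ n) (d : Fin n → ℕ) (hs : IsSplit n d) :
    (∀ G : Realization n d, tvDist n d (6 * n.choose 4 * (n * n + 2)) G ≤ 1 / 4) ∧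
      tmix n d ≤ n ^ 6 :=
  ⟨fun G => split_tv hn hs G, split_tmix hn hs⟩

end Vale.Agent.Results.P335.SplitRapidMixing
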